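import Vale.Agent.P062.Top

namespace Vale.Agent.Results.P062.MakerWins

open Vale.Agent.P062

theorem result : ∃ σ : List Cell → Cell, ∀ (β : ℕ → Cell) (n : ℕ),
    (∀ k < n, BreakerLegal σ β k) →
      MakerLegal σ β n ∧ (34 ≤ n → OwnsCopy (makerCells σ β n)) :=
  strategy_of_Wn 34 wn35

end Vale.Agent.Results.P062.MakerWins
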